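import Vale.Agent.P327.Join
import Mathlib.Topology.Baire.BaireMeasurable
import Mathlib.Topology.MetricSpace.PiNat
import Mathlib.Topology.Baire.LocallyCompactRegular
import Mathlib.MeasureTheory.Constructions.BorelSpace.Basic

/-!
Baire category on Cantor space, measurability, cone avoidance.
-/

namespace Vale.Agent.P327

open Encodable Filter

/-- Agreement below `L`. -/
def Agree (L : ℕ) (x y : C) : Prop := ∀ i < L, x i = y i

/-- Basic open sets. -/
def Cyl (s : List Bool) (x : C) : Prop := ∀ i < s.length, x i = s.getD i false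

def lst (x : C) (L : ℕ) : List Bool := (List.range L).map x

theorem lst_getD (x : C) {L i : ℕ} (h : i < L) : (lst x L).getD i false = x i := by
  simp [lst, List.getD_eq_getElem?_getD, h]

@[simp] theorem lst_length (x : C) (L : ℕ) : (lst x L).length = L := by simp [lst]

theorem cyl_lst {x y : C} {L : ℕ} : Cyl (lst x L) y ↔ Agree L y x := by
  simp only [Cyl, lst_length, Agree]
  exact forall₂_congr fun i hi => by rw [lst_getD x hi]

theorem freq_pigeon {ι : Type} [Countable ι] {p : C → Prop} {q : ι → C → Prop}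
    (h : ∃ᶠ x in residual C, p x) (hq : ∀ x, p x → ∃ i, q i x) :
    ∃ i, ∃ᶠ x in residual C, p x ∧ q i x := by
  by_contra hc
  simp only [not_exists, not_frequently] at hc
  have := eventually_countable_forall.2 hc
  obtain ⟨x, hx, hx'⟩ := (h.and_eventually this).exists
  obtain ⟨i, hi⟩ := hq x hx
  exact hx' i ⟨hx, hi⟩

theorem exists_agree_of_open {U : Set C} (hU : IsOpen U) {x : C} (hx : x ∈ U) :
    ∃ L, ∀ y, Agree L y x → y ∈ U := by
  obtain ⟨_, ⟨z, L, rfl⟩, hx', hsub⟩ :=
    (PiNat.isTopologicalBasis_cylinders (fun _ : ℕ => Bool)).exists_subset_of_mem_open hx hU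
  exact ⟨L, fun y hy => hsub fun i hi => (hy i hi).trans (hx' i hi)⟩

theorem localize {p q : C → Prop} (hp : ∃ᶠ x in residual C, p x) (hq : Measurable q)
    (hpq : ∀ x, p x → q x) :
    ∃ s : List Bool, (∀ᶠ x in residual C, Cyl s x → q x) ∧ ∃ᶠ x in residual C, p x ∧ Cyl s x := by
  obtain ⟨U, hU, he⟩ := hq.setOf.residualEq_isOpen
  have he' : ∀ᶠ x in residual C, q x ↔ x ∈ U := eventuallyEq_set.1 he
  have h1 : ∃ᶠ x in residual C, p x ∧ x ∈ U :=
    (hp.and_eventually he').mono fun x hx => ⟨hx.1, hx.2.1 (hpq x hx.1)⟩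
  obtain ⟨s, hs⟩ := freq_pigeon (q := fun (s : List Bool) x => Cyl s x ∧ ∀ y, Cyl s y → y ∈ U) h1
    (fun x hx => by
      obtain ⟨L, hL⟩ := exists_agree_of_open hU hx.2
      exact ⟨lst x L, cyl_lst.2 fun _ _ => rfl, fun y hy => hL y (cyl_lst.1 hy)⟩)
  obtain ⟨x0, hx0⟩ := hs.exists
  exact ⟨s, he'.mono fun x hx hc => hx.2 (hx0.2.2 x hc), hs.mono fun x hx => ⟨hx.1.1, hx.2.1⟩⟩

theorem residual_of_agree {p : C → Prop}
    (h : ∀ x L, ∃ y M, Agree L y x ∧ ∀ z, Agree M z y → p z) : ∀ᶠ z in residual C, p z := by
  have : interior {z | p z} ∈ residual C := by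
    refine residual_of_dense_open isOpen_interior ?_
    rw [dense_iff_inter_open]
    rintro U hU ⟨x, hx⟩
    obtain ⟨L, hL⟩ := exists_agree_of_open hU hx
    obtain ⟨y, M, hy, hM⟩ := h x L
    refine ⟨y, hL y hy, mem_interior.2 ⟨PiNat.cylinder y M, fun z hz => hM z hz,
      PiNat.isOpen_cylinder _ y M, PiNat.self_mem_cylinder y M⟩⟩
  exact mem_of_superset this interior_subset

theorem freq_true : ∃ᶠ _x in residual C, True := by
  intro h
  have : (∅ : Set C) ∈ residual C := by
    rw [Filter.empty_mem_iff_bot]; simpa using h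
  simpa using (dense_of_mem_residual this).nonempty

theorem ev_exists {p : C → Prop} (h : ∀ᶠ x in residual C, p x) : ∃ x, p x :=
  let ⟨x, hx⟩ := (freq_true.and_eventually h).exists
  ⟨x, hx.2⟩

theorem ev_ne (a : C) : ∀ᶠ x in residual C, x ≠ a := by
  refine residual_of_agree fun x L => ⟨Function.update x L (!a L), L + 1, ?_, ?_⟩
  · intro i hi
    rw [Function.update_of_ne hi.ne]
  · rintro z hz rfl
    simpa using hz L (Nat.lt_succ_self L)

theorem ev_invol {T : C → C} (hT : Continuous T) (hinv : ∀ x, T (T x) = x) {p : C → Prop}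
    (h : ∀ᶠ x in residual C, p x) : ∀ᶠ x in residual C, p (T x) := by
  let e : C ≃ₜ C := ⟨⟨T, T, hinv, hinv⟩, hT, hT⟩
  exact (tendsto_residual_of_isOpenMap e.continuous e.isOpenMap).eventually h

section Meas

variable {α : Type} [MeasurableSpace α]

theorem meas_ap {u : α → C} (hu : Measurable u) (s : S) : Measurable fun a => Ap s (u a) :=
  Measurable.forall fun i => Measurable.forall fun b =>
    Measurable.imp measurable_const (((measurable_pi_apply i).comp hu).eq_const b)

theorem meas_red {u v : α → C} (hu : Measurable u) (hv : Measurable v)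
    (ψ : S → ℕ → Option Bool) : Measurable fun a => Red ψ (u a) (v a) :=
  Measurable.and
    (Measurable.forall fun s => Measurable.forall fun n => Measurable.forall fun b =>
      (meas_ap hu s).imp (Measurable.imp measurable_const
        (((measurable_pi_apply n).comp hv).eq_const b)))
    (Measurable.forall fun _ => Measurable.exists fun _ => Measurable.forall fun s =>
      (meas_ap hu s).imp measurable_const)

theorem meas_join {u v : α → C} (hu : Measurable u) (hv : Measurable v) :
    Measurable fun a => join (u a) (v a) := by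
  refine measurable_pi_lambda _ fun n => ?_
  unfold join
  cases n.bodd
  · exact (measurable_pi_apply _).comp hu
  · exact (measurable_pi_apply _).comp hv

theorem meas_decide {p : α → Prop} [DecidablePred p] (hp : Measurable p) :
    Measurable fun a => decide (p a) :=
  measurable_to_bool (by simpa [Set.preimage] using hp)

theorem meas_tl {u v : α → C} (hu : Measurable u) (hv : Measurable v) :
    Measurable fun a => TL (u a) (v a) := by
  have : (fun a => TL (u a) (v a)) = fun a => ∃ ψ : Fn, Red ψ.1 (v a) (u a) := by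
    funext a
    exact propext ⟨TL.exists_red, fun ⟨_, h⟩ => h.tl⟩
  rw [this]
  exact Measurable.exists fun ψ => meas_red hv hu ψ.1

open Classical in
/-- The output of a functional (junk where it diverges). -/
noncomputable def out (ψ : S → ℕ → Option Bool) (y : C) : C :=
  fun n => decide (∃ s, Ap s y ∧ ψ s n = some true)

theorem meas_out {u : α → C} (hu : Measurable u) (ψ : S → ℕ → Option Bool) :
    Measurable fun a => out ψ (u a) := by
  classical
  refine measurable_pi_lambda _ fun n => ?_
  exact meas_decide (Measurable.exists fun s => (meas_ap hu s).and measurable_const)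

theorem Red.out_eq {ψ : S → ℕ → Option Bool} {x y : C} (h : Red ψ y x) : out ψ y = x := by
  funext n
  unfold out
  cases hx : x n
  · simp only [decide_eq_false_iff_not]
    rintro ⟨s, hs, hb⟩
    have := h.1 s n true hs hb
    simp [hx] at this
  · simp only [decide_eq_true_eq]
    obtain ⟨k, hk⟩ := h.2 n
    obtain ⟨b, hb⟩ := Option.isSome_iff_exists.1 (hk _ (ap_pre y k) (full_pre y le_rfl))
    have := h.1 _ n b (ap_pre y k) hb
    rw [hx] at this
    exact ⟨_, ap_pre y k, this ▸ hb⟩

end Meas

/-- Cone avoidance. -/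
theorem cone_avoid {Y V : C} (h : ∃ᶠ W in residual C, TL Y (join V W)) : TL Y V := by
  obtain ⟨ψ, hψ⟩ := freq_pigeon (q := fun (ψ : Fn) W => Red ψ.1 (join V W) Y) h
    fun W hW => hW.exists_red
  have : ∃ x L, ∀ y M, Agree L y x → ∃ z, Agree M z y ∧ Red ψ.1 (join V z) Y := by
    by_contra hc
    push Not at hc
    have := residual_of_agree (p := fun z => ¬ Red ψ.1 (join V z) Y) hc
    obtain ⟨z, hz, hz'⟩ := (hψ.and_eventually this).exists
    exact hz' hz.2
  obtain ⟨x, L, hx⟩ := this
  let W : List Bool → C := fun t i => if i < L then (lst x L).getD i false else t.getD i false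
  have hW : ∀ t, Agree L (W t) x := fun t i hi => by simp only [W, if_pos hi, lst_getD x hi]
  let E : ℕ → ℕ → Option Bool := fun n c => (decode (α := ℕ × List Bool) c).bind fun q =>
    ψ.1 (jn (pre V c) (tab q.1 fun i => some (W q.2 i))) n
  refine ci_search (E := E) ?_ ?_ ?_
  · have hp : Primrec fun r : S × ℕ × ℕ => (decode (α := ℕ × List Bool) r.2.2).bind fun q =>
        ψ.1 (jn r.1 (tab q.1 fun i => some (W q.2 i))) r.2.1 := by
      open Primrec in
      refine option_bind (Primrec.decode.comp (snd.comp snd)) (Primrec₂.mk ?_)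
      refine ψ.2.comp (jn_prim.comp (fst.comp fst) (tab_prim (fst.comp snd) (Primrec₂.mk ?_)))
        (fst.comp (snd.comp fst))
      refine option_some.comp (Primrec.ite (nat_lt.comp snd (const L))
        ((list_getD false).comp (const (lst x L)) snd)
        ((list_getD false).comp (snd.comp (snd.comp fst)) snd))
    exact ci_prim hp (g := fun q : ℕ × ℕ => (pre V q.2, q.1, q.2))
      (ci_pair (ci_comp (ci_pre (TL.refl V)) ComputableIn.snd) ComputableIn.id)
  · intro n c b hb
    obtain ⟨q, -, hq⟩ := Option.bind_eq_some_iff.1 hb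
    obtain ⟨z, hz, hr⟩ := hx (W q.2) q.1 (hW q.2)
    refine hr.1 _ n b (ap_jn (ap_pre V c) (ap_tab fun i hi b hb => ?_)) hq
    rw [hz i hi]
    exact Option.some.inj hb
  · intro n
    obtain ⟨z, hz, hr⟩ := hx x L fun _ _ => rfl
    obtain ⟨k, hk⟩ := hr.2 n
    refine ⟨encode (k, lst z k), ?_⟩
    simp only [E, encodek, Option.bind_some]
    refine hk _ (ap_jn (ap_pre V _) (ap_tab fun i hi b hb => ?_))
      (full_jn (full_pre V ?_) (full_tab le_rfl fun _ _ => rfl))
    · have hb' : W (lst z k) i = b := Option.some.inj hb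
      rw [← hb']
      simp only [W]
      split_ifs with hL
      · rw [lst_getD x hL, hz i hL]
      · rw [lst_getD z hi]
    · simpa using Nat.left_le_pair _ _

end Vale.Agent.P327
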