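import Vale.Agent.P327.Baire

/-!
Step A: an automorphism is covered by countably many Borel functions.
-/

namespace Vale.Agent.P327

open Encodable Filter

/-- Selection of columns of `G` according to `Y`. -/
def sel (G Y : C) : C := fun k => G (2 * k + (Y k.unpair.1).toNat)

/-- The `n`-th distinguished column of `G`. -/
def col (G : C) (n : ℕ) : C := fun m => G (2 * Nat.pair n m + 1)

theorem sel_tl (G Y : C) : TL (sel G Y) (join Y G) := by
  have h1 : ComputableIn {orc (join Y G)} fun k : ℕ => Y k.unpair.1 :=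
    ci_comp (tl_join_left Y G) (Primrec.fst.comp Primrec.unpair).computableIn
  have h2 := ci_cond h1 (ci_comp (tl_join_right Y G) Primrec.nat_double_succ.computableIn)
    (ci_comp (tl_join_right Y G) Primrec.nat_double.computableIn)
  refine ci_of_eq h2 fun k => ?_
  unfold sel
  cases Y k.unpair.1 <;> simp

theorem col_tl {G Y : C} {n : ℕ} (h : Y n = true) : TL (col G n) (sel G Y) :=
  ci_of_eq (ci_comp (TL.refl (sel G Y))
    (Primrec₂.natPair.comp (Primrec.const n) Primrec.id).computableIn) fun m => by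
      simp [sel, col, h]

def Symm (L : ℕ) (H : C) : Prop := ∀ k, L ≤ k.unpair.1 → H (2 * k) = H (2 * k + 1)

theorem sel_agree {L M : ℕ} {H G Y Y' : C} (hH : Symm L H) (hG : Agree (2 * M) G H)
    (hY : Agree L Y Y') : Agree M (sel G Y) (sel H Y') := by
  intro k hk
  unfold sel
  rw [hG _ (by have := Bool.toNat_le (Y k.unpair.1); omega)]
  by_cases h : k.unpair.1 < L
  · rw [hY _ h]
  · have := hH k (not_lt.1 h)
    cases Y k.unpair.1 <;> cases Y' k.unpair.1 <;> simp [this]

theorem step (ψ : S → ℕ → Option Bool) {n L : ℕ} (hn : n < L) (Y0 : C) (hY0 : Y0 n = false)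
    (H : C) (M : ℕ) (hH : Symm L H) :
    ∃ H' M', Symm L H' ∧ M ≤ M' ∧ Agree (2 * M) H' H ∧
      ∀ G Y, Agree (2 * M') G H' → Agree L Y Y0 → ¬ Red ψ (sel G Y) (col G n) := by
  by_cases hc : ∃ z s m b, Agree M z (sel H Y0) ∧ Ap s z ∧ M ≤ m ∧ ψ s m = some b
  · obtain ⟨z, s, m, b, hz, hs, hm, hb⟩ := hc
    let H' : C := fun i =>
      if L ≤ (i / 2).unpair.1 ∨ i % 2 = (Y0 (i / 2).unpair.1).toNat then z (i / 2)
      else if i / 2 = Nat.pair n m then !b else H i
    have hsym : Symm L H' := by
      intro k hk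
      have e1 : 2 * k / 2 = k := by omega
      have e2 : (2 * k + 1) / 2 = k := by omega
      simp only [H', e1, e2, hk, true_or, if_true]
    have hsel : sel H' Y0 = z := by
      funext k
      have := Bool.toNat_le (Y0 k.unpair.1)
      have e1 : (2 * k + (Y0 k.unpair.1).toNat) / 2 = k := by omega
      have e2 : (2 * k + (Y0 k.unpair.1).toNat) % 2 = (Y0 k.unpair.1).toNat := by omega
      simp only [sel, H', e1, e2, or_true, if_true]
    refine ⟨H', max M (max s.length (Nat.pair n m + 1)), hsym, le_max_left _ _, ?_, ?_⟩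
    · intro i hi
      simp only [H']
      split_ifs with h1 h2
      · rw [hz _ (by omega)]
        unfold sel
        rcases h1 with h1 | h1
        · have := hH _ h1
          rcases Nat.mod_two_eq_zero_or_one i with h | h
          · have e : i = 2 * (i / 2) := by omega
            cases Y0 (i / 2).unpair.1
            · simpa using congrArg H e.symm
            · simp only [Bool.toNat_true]
              rw [← this]; exact congrArg H e.symm
          · have e : i = 2 * (i / 2) + 1 := by omega
            cases Y0 (i / 2).unpair.1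
            · simp only [Bool.toNat_false, Nat.add_zero]
              rw [this]; exact congrArg H e.symm
            · simpa using congrArg H e.symm
        · rw [← h1]; congr 1; omega
      · have := Nat.right_le_pair n m
        omega
      · rfl
    · intro G Y hG hY hr
      have h1 := sel_agree hsym hG hY
      rw [hsel] at h1
      have h2 : Ap s (sel G Y) := by
        intro i c hc
        have : i < s.length := lt_of_val (by simp [hc])
        rw [h1 i (by omega)]
        exact hs i c hc
      have h3 := hr.1 s m b h2 hb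
      unfold col at h3
      rw [hG _ (by omega)] at h3
      have e1 : (2 * Nat.pair n m + 1) / 2 = Nat.pair n m := by omega
      have e2 : (2 * Nat.pair n m + 1) % 2 = 1 := by omega
      simp [H', e1, e2, hY0, not_le.2 hn] at h3
  · refine ⟨H, M, hH, le_rfl, fun _ _ => rfl, fun G Y hG hY hr => hc ?_⟩
    obtain ⟨k, hk⟩ := hr.2 M
    obtain ⟨b, hb⟩ := Option.isSome_iff_exists.1 (hk _ (ap_pre _ k) (full_pre _ le_rfl))
    exact ⟨sel G Y, _, M, b, sel_agree hH hG hY, ap_pre _ k, le_rfl, hb⟩

theorem steps (ψ : S → ℕ → Option Bool) {n L : ℕ} (hn : n < L) (H : C) (M : ℕ) (hH : Symm L H)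
    (R : List C) :
    ∃ H' M', Symm L H' ∧ M ≤ M' ∧ Agree (2 * M) H' H ∧ ∀ Y0 ∈ R, Y0 n = false →
      ∀ G Y, Agree (2 * M') G H' → Agree L Y Y0 → ¬ Red ψ (sel G Y) (col G n) := by
  induction R with
  | nil => exact ⟨H, M, hH, le_rfl, fun _ _ => rfl, by simp⟩
  | cons Y1 R ih =>
    obtain ⟨H1, M1, s1, l1, a1, r1⟩ := ih
    by_cases hY1 : Y1 n = false
    · obtain ⟨H2, M2, s2, l2, a2, r2⟩ := step ψ hn Y1 hY1 H1 M1 s1
      refine ⟨H2, M2, s2, l1.trans l2, fun i hi => (a2 i (by omega)).trans (a1 i hi), ?_⟩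
      intro Y0 hY0 h0 G Y hG hY
      rcases List.mem_cons.1 hY0 with rfl | hY0
      · exact r2 G Y hG hY
      · exact r1 Y0 hY0 h0 G Y (fun i hi => (hG i (by omega)).trans (a2 i hi)) hY
    · refine ⟨H1, M1, s1, l1, a1, ?_⟩
      intro Y0 hY0 h0
      rcases List.mem_cons.1 hY0 with rfl | hY0
      · exact absurd h0 hY1
      · exact r1 Y0 hY0 h0

theorem exists_patterns (L : ℕ) : ∃ R : List C, ∀ Y : C, ∃ Y0 ∈ R, Agree L Y Y0 := by
  classical
  let e : (Fin L → Bool) → C := fun r i => if h : i < L then r ⟨i, h⟩ else false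
  refine ⟨(Finset.univ : Finset (Fin L → Bool)).toList.map e, fun Y => ⟨e fun i => Y i, ?_, ?_⟩⟩
  · exact List.mem_map.2 ⟨fun i => Y i, by simp, rfl⟩
  · intro i hi
    simp [e, hi]

theorem exists_independent : ∃ G : C, ∀ Y n, TL (col G n) (sel G Y) → Y n = true := by
  have key : ∀ p : Fn × ℕ, ∀ᶠ G in residual C,
      ∀ Y, Y p.2 = false → ¬ Red p.1.1 (sel G Y) (col G p.2) := by
    rintro ⟨ψ, n⟩
    refine residual_of_agree fun x L0 => ?_
    let L := max L0 (n + 1)
    have hn : n < L := by omega
    let H : C := fun i => if i < L then x i else false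
    have hH : Symm L H := by
      intro k hk
      have := Nat.unpair_left_le k
      by_cases h0 : k = 0
      · subst h0
        simp at hk
        omega
      · have e1 : ¬ 2 * k < L := by omega
        have e2 : ¬ 2 * k + 1 < L := by omega
        simp [H, e1, e2]
    obtain ⟨R, hR⟩ := exists_patterns L
    obtain ⟨H', M', -, l, a, r⟩ := steps ψ.1 hn H L hH R
    refine ⟨H', 2 * M', fun i hi => ?_, fun G hG Y hY => ?_⟩
    · rw [a i (by omega)]
      have : i < L := by omega
      simp [H, this]
    · obtain ⟨Y0, h0, hY0⟩ := hR Y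
      exact r Y0 h0 (by rw [← hY0 n hn]; exact hY) G Y hG hY0
  obtain ⟨G, hG⟩ := ev_exists (eventually_countable_forall.2 key)
  refine ⟨G, fun Y n h => ?_⟩
  obtain ⟨ψ, hψ⟩ := h.exists_red
  by_contra hY
  exact hG (ψ, n) Y (by simpa using hY) hψ

/-- The graph of an automorphism of the degrees, pulled back to Cantor space. -/
structure Aut (R : C → C → Prop) : Prop where
  left : ∀ x, ∃ y, R x y
  right : ∀ y, ∃ x, R x y
  le_iff : ∀ {x y x' y'}, R x y → R x' y' → (TL x x' ↔ TL y y')

theorem Aut.symm {R : C → C → Prop} (h : Aut R) : Aut fun y x => R x y :=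
  ⟨h.right, h.left, fun h1 h2 => (h.le_iff h1 h2).symm⟩

theorem Aut.join {R : C → C → Prop} (h : Aut R) {x y x' y' c d : C} (h1 : R x y) (h2 : R x' y')
    (h3 : R c d) (hc : TL c (join x x')) : TL d (join y y') := by
  obtain ⟨w, hw⟩ := h.right (P327.join y y')
  have e1 : TL x w := (h.le_iff h1 hw).2 (tl_join_left y y')
  have e2 : TL x' w := (h.le_iff h2 hw).2 (tl_join_right y y')
  exact (h.le_iff h3 hw).1 (hc.trans (join_tl e1 e2))

theorem Aut.cover {R : C → C → Prop} (h : Aut R) :
    ∃ F : Fn → C → C, (∀ ψ, Measurable (F ψ)) ∧ ∀ x y, R x y → ∃ ψ, F ψ x = y := by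
  classical
  obtain ⟨G, hG⟩ := exists_independent
  choose A hA using fun n => h.right (col G n)
  obtain ⟨c, hc⟩ := h.right G
  refine ⟨fun ψ x n => decide (TL (A n) (out ψ.1 (P327.join x c))), fun ψ => ?_, ?_⟩
  · refine measurable_pi_lambda _ fun n => meas_decide ?_
    exact meas_tl measurable_const (meas_out (meas_join measurable_id measurable_const) ψ.1)
  · intro x y hxy
    obtain ⟨r, hr⟩ := h.right (sel G y)
    obtain ⟨ψ, hψ⟩ := (h.symm.join hxy hc hr (sel_tl G y)).exists_red
    refine ⟨ψ, funext fun n => ?_⟩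
    simp only [hψ.out_eq]
    have : TL (A n) r ↔ y n = true := by
      rw [h.le_iff (hA n) hr]
      exact ⟨hG y n, col_tl⟩
    cases hy : y n <;> simp [this, hy]

end Vale.Agent.P327
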