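import Mathlib.Computability.TuringDegree
import Mathlib.Algebra.Notation.Indicator

namespace Vale.Agent.P327

/-- The characteristic function of a set `A` of natural numbers (value `1` on `A`, `0` off `A`),
as an everywhere defined element of `ℕ →. ℕ`. -/
noncomputable def chi (A : Set ℕ) : ℕ →. ℕ := fun n => Part.some (A.indicator 1 n)

/-- The Turing degrees of subsets of `ℕ`: the degrees, in Mathlib's order `TuringDegree`, of
characteristic functions of sets. -/
abbrev Deg : Type :=
  {d : TuringDegree // ∃ A : Set ℕ, d = toAntisymmetrization TuringReducible (chi A)}

end Vale.Agent.P327
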