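import Vale.Agent.P327.Main
import Vale.Agent.P327.Defs

namespace Vale.Agent.P327

theorem chi_eq (x : C) : chi {n | x n = true} = orc x := by
  funext n
  unfold chi orc
  cases h : x n
  · rw [Set.indicator_of_notMem (by simp [h])]; rfl
  · rw [Set.indicator_of_mem (by simp [h])]; rfl

/-- The degree of a point of Cantor space. -/
noncomputable def dg (x : C) : Deg :=
  ⟨toAntisymmetrization TuringReducible (orc x), ⟨_, by rw [chi_eq]⟩⟩

theorem dg_le {x y : C} : dg x ≤ dg y ↔ TL x y := by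
  rw [tl_iff, ← RecursiveIn.iff_nat]
  exact Iff.rfl

theorem dg_surj (a : Deg) : ∃ x, dg x = a := by
  classical
  obtain ⟨d, A, rfl⟩ := a
  refine ⟨fun n => decide (n ∈ A), Subtype.ext ?_⟩
  simp only [dg, ← chi_eq]
  simp

theorem rigidity (π : Deg → Deg) (hbij : Function.Bijective π)
    (hle : ∀ a b : Deg, a ≤ b ↔ π a ≤ π b) (a : Deg) : π a = a := by
  have h : Aut fun x y => π (dg x) = dg y := by
    refine ⟨fun x => ?_, fun y => ?_, ?_⟩
    · obtain ⟨y, hy⟩ := dg_surj (π (dg x))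
      exact ⟨y, hy.symm⟩
    · obtain ⟨b, hb⟩ := hbij.2 (dg y)
      obtain ⟨x, rfl⟩ := dg_surj b
      exact ⟨x, hb⟩
    · intro x y x' y' h1 h2
      rw [← dg_le, ← dg_le, hle, h1, h2]
  obtain ⟨x, rfl⟩ := dg_surj a
  obtain ⟨y, hy⟩ := h.left x
  obtain ⟨h1, h2⟩ := h.equiv hy
  rw [hy]
  exact le_antisymm (dg_le.2 h2) (dg_le.2 h1)

end Vale.Agent.P327
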