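import Vale.Agent.P327.Cover

/-!
A finitely generated group of involutions of Cantor space whose word problem codes a real.
-/

namespace Vale.Agent.P327

open Encodable Filter

def r0 (w : ℕ) : ℕ := if w % 2 = 0 then w + 1 else w - 1

def r1 (w : ℕ) : ℕ := if w = 0 then 0 else if w % 2 = 0 then w - 1 else w + 1

def pm (X : C) (i : Fin 4) (w : ℕ) : ℕ :=
  if i = 0 then r0 w else if i = 1 then r1 w else if i = 2 then w
  else cond (X (w / 2)) (r0 w) w

def fl (i : Fin 4) (w : ℕ) : Bool := decide (i = 2 ∧ w = 0)

theorem r0_r0 (w : ℕ) : r0 (r0 w) = w := by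
  unfold r0; split_ifs <;> omega

theorem r1_r1 (w : ℕ) : r1 (r1 w) = w := by
  unfold r1; split_ifs <;> first | omega | contradiction

theorem r0_div (w : ℕ) : r0 w / 2 = w / 2 := by
  unfold r0; split_ifs <;> omega

theorem pm_pm (X : C) (i : Fin 4) (w : ℕ) : pm X i (pm X i w) = w := by
  unfold pm
  split_ifs
  · exact r0_r0 w
  · exact r1_r1 w
  · rfl
  · cases h : X (w / 2)
    · simp [h]
    · simp [h, r0_div, r0_r0]

theorem fl_pm (X : C) (i : Fin 4) (w : ℕ) : fl i (pm X i w) = fl i w := by
  unfold fl
  by_cases h : i = 2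
  · subst h; simp [pm]
  · simp [h]

/-- The generators, switched on in the blocks selected by `d`. -/
def T (X : C) (i : Fin 4) (d x : C) : C := fun n =>
  cond (d n.unpair.1) (xor (x (Nat.pair n.unpair.1 (pm X i n.unpair.2))) (fl i n.unpair.2)) (x n)

theorem T_pair (X : C) (i : Fin 4) (d x : C) (j w : ℕ) : T X i d x (Nat.pair j w) =
    cond (d j) (xor (x (Nat.pair j (pm X i w))) (fl i w)) (x (Nat.pair j w)) := by
  simp [T]

theorem ext_pair {x y : C} (h : ∀ j w, x (Nat.pair j w) = y (Nat.pair j w)) : x = y := by
  funext n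
  rw [← Nat.pair_unpair n]
  exact h _ _

theorem T_T (X : C) (i : Fin 4) (d d' x : C) :
    T X i d' (T X i d x) = T X i (fun j => xor (d j) (d' j)) x := by
  refine ext_pair fun j w => ?_
  simp only [T_pair, pm_pm, fl_pm]
  cases d j <;> cases d' j <;> simp

theorem T_invol (X : C) (i : Fin 4) (d x : C) : T X i d (T X i d x) = x := by
  rw [T_T]
  refine ext_pair fun j w => ?_
  simp [T_pair]

theorem T_cont (X : C) (i : Fin 4) (d : C) : Continuous (T X i d) := by
  refine continuous_pi fun n => ?_
  unfold T
  cases d n.unpair.1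
  · exact continuous_apply n
  · exact (continuous_of_discreteTopology (f := fun b => xor b (fl i n.unpair.2))).comp
      (continuous_apply _)

theorem T_agree (X : C) (i : Fin 4) {d : C} {L : ℕ} (hd : ∀ j < L, d j = false) (x : C) :
    Agree L (T X i d x) x := by
  intro n hn
  have := Nat.unpair_left_le n
  simp [T, hd n.unpair.1 (by omega)]

theorem r0_prim : Primrec r0 := by
  open Primrec in
  exact Primrec.ite (PrimrecRel.comp Primrec.eq (nat_mod.comp .id (const 2)) (const 0)) succ
    (nat_sub.comp .id (const 1))

theorem r1_prim : Primrec r1 := by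
  open Primrec in
  exact Primrec.ite (PrimrecRel.comp Primrec.eq .id (const 0)) (const 0)
    (Primrec.ite (PrimrecRel.comp Primrec.eq (nat_mod.comp .id (const 2)) (const 0))
      (nat_sub.comp .id (const 1)) succ)

theorem pm_ci {O : Set (ℕ →. ℕ)} {X : C} (hX : ComputableIn O X) (i : Fin 4) :
    ComputableIn O (pm X i) := by
  unfold pm
  split_ifs
  · exact r0_prim.computableIn
  · exact r1_prim.computableIn
  · exact ComputableIn.id
  · exact ci_cond (ci_comp hX (Primrec.nat_div.comp .id (Primrec.const 2)).computableIn)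
      r0_prim.computableIn ComputableIn.id

theorem fl_prim (i : Fin 4) : Primrec (fl i) := by
  unfold fl
  by_cases h : i = 2
  · simp only [h, true_and]
    exact (PrimrecRel.comp Primrec.eq .id (Primrec.const 0)).decide
  · simp only [h, false_and, decide_false]
    exact Primrec.const false

theorem T_tl {X d x O : C} (i : Fin 4) (hX : TL X O) (hd : TL d O) (hx : TL x O) :
    TL (T X i d x) O := by
  have h1 : Primrec fun n : ℕ => n.unpair.1 := Primrec.fst.comp Primrec.unpair
  have h2 : Primrec fun n : ℕ => n.unpair.2 := Primrec.snd.comp Primrec.unpair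
  exact ci_cond (ci_comp hd h1.computableIn)
    (ci_prim₂ (Primrec.dom_bool₂ xor)
      (ci_comp hx (ci_prim₂ Primrec₂.natPair h1.computableIn
        (ci_comp (pm_ci hX i) h2.computableIn)))
      ((fl_prim i).comp h2).computableIn) hx

/-- Action of words. -/
def act (X d : C) (w : List (Fin 4)) (x : C) : C := w.foldr (fun i y => T X i d y) x

theorem act_cons (X d : C) (i : Fin 4) (w : List (Fin 4)) (x : C) :
    act X d (i :: w) x = T X i d (act X d w x) := rfl

theorem act_concat (X d : C) (i : Fin 4) (w : List (Fin 4)) (x : C) :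
    act X d (w ++ [i]) x = act X d w (T X i d x) := by
  simp [act, List.foldr_append]

theorem act_agree (X : C) {d : C} {L : ℕ} (hd : ∀ j < L, d j = false) (w : List (Fin 4))
    (x : C) : Agree L (act X d w x) x := by
  induction w with
  | nil => exact fun _ _ => rfl
  | cons i w ih => exact fun n hn => (T_agree X i hd _ n hn).trans (ih n hn)

theorem ev_act (X d : C) (w : List (Fin 4)) :
    ∀ {p : C → Prop}, (∀ᶠ x in residual C, p x) → ∀ᶠ x in residual C, p (act X d w x) := by
  induction w with
  | nil => exact fun h => h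
  | cons i w ih =>
    intro p h
    exact ih (p := fun y => p (T X i d y)) (ev_invol (T_cont X i d) (T_invol X i d) h)

/-- Flip position `m` in the selected blocks. -/
def flip (d : C) (m : ℕ) (x : C) : C :=
  fun n => xor (x n) (d n.unpair.1 && decide (n.unpair.2 = m))

theorem flip_pair (d : C) (m : ℕ) (x : C) (j w : ℕ) :
    flip d m x (Nat.pair j w) = xor (x (Nat.pair j w)) (d j && decide (w = m)) := by
  simp [flip]

theorem T_flip (X : C) {i : Fin 4} (d : C) (m : ℕ) (x : C) :
    T X i d (flip d m x) = flip d (pm X i m) (T X i d x) := by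
  refine ext_pair fun j w => ?_
  simp only [T_pair, flip_pair]
  have : pm X i w = m ↔ w = pm X i m :=
    ⟨fun h => by rw [← h, pm_pm], fun h => by rw [h, pm_pm]⟩
  cases d j
  · simp
  · simp only [this, cond_true, Bool.true_and]
    cases x (Nat.pair j (pm X i w)) <;> cases fl i w <;> simp

def rr (m : ℕ) : Fin 4 := if m % 2 = 0 then 0 else 1

theorem pm_rr (X : C) (m : ℕ) : pm X (rr m) m = m + 1 := by
  unfold rr
  split_ifs with h
  · simp [pm, r0, h]
  · have : m ≠ 0 := by omega
    simp [pm, r1, h, this]

/-- The word flipping position `m`. -/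
def fw (m : ℕ) : List (Fin 4) :=
  Nat.rec (motive := fun _ => List (Fin 4)) [2] (fun m l => rr m :: (l ++ [rr m])) m

theorem act_fw (X d : C) (m : ℕ) : ∀ x, act X d (fw m) x = flip d m x := by
  induction m with
  | zero =>
    intro x
    refine ext_pair fun j w => ?_
    change T X 2 d x _ = _
    rw [T_pair, flip_pair]
    cases d j <;> simp [pm, fl]
  | succ m ih =>
    intro x
    change act X d (rr m :: (fw m ++ [rr m])) x = _
    rw [act_cons, act_concat, ih, T_flip, T_invol, pm_rr]

theorem fw_prim : Primrec fw := by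
  open Primrec in
  have h : Primrec rr :=
    Primrec.ite (PrimrecRel.comp Primrec.eq (nat_mod.comp .id (const 2)) (const 0))
      (const 0) (const 1)
  exact nat_rec₁ _ (Primrec₂.mk (list_cons.comp (h.comp fst)
    (list_concat.comp snd (h.comp fst))))

theorem act_test (X : C) {d : C} {j : ℕ} (hj : d j = true) (m : ℕ) (x : C) :
    act X d (3 :: fw (2 * m)) x = act X d (fw (2 * m) ++ [3]) x ↔ X m = false := by
  rw [act_cons, act_concat, act_fw, act_fw, T_flip]
  have e : 2 * m / 2 = m := by omega
  cases h : X m
  · simp [pm, e, h]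
  · have : pm X 3 (2 * m) = 2 * m + 1 := by simp [pm, e, h, r0]
    rw [this]
    simp only [Bool.true_eq_false, iff_false]
    intro hc
    have := congrFun hc (Nat.pair j (2 * m))
    simp [flip_pair, hj] at this

/-- Decoding a real from the inequality problem of the test words. -/
theorem decode_tl {X O : C} {A : List (Fin 4) → C}
    (hA : ComputableIn {orc O} fun p : List (Fin 4) × ℕ => A p.1 p.2)
    (h : ∀ m, A (3 :: fw (2 * m)) = A (fw (2 * m) ++ [3]) ↔ join X (fun n => !X n) m = false) :
    TL X O := by
  let D : ℕ → ℕ → Bool := fun m t => xor (A (3 :: fw (2 * m)) t) (A (fw (2 * m) ++ [3]) t)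
  have hD : ComputableIn {orc O} fun q : ℕ × ℕ => D q.1 q.2 := by
    open Primrec in
    have h1 : Primrec fun q : ℕ × ℕ => fw (2 * q.1) := fw_prim.comp (nat_double.comp fst)
    exact ci_prim₂ (f := xor) (dom_bool₂ xor)
      (ci_comp hA (g := fun q : ℕ × ℕ => (3 :: fw (2 * q.1), q.2))
        (Primrec.pair (list_cons.comp (const 3) h1) snd).computableIn)
      (ci_comp hA (g := fun q : ℕ × ℕ => (fw (2 * q.1) ++ [3], q.2))
        (Primrec.pair (list_concat.comp h1 (const 3)) snd).computableIn)
  have hD1 : ∀ m t, D m t = true → join X (fun n => !X n) m = true := by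
    intro m t ht
    by_contra hc
    have := (h m).2 (by simpa using hc)
    simp [D, this] at ht
  have hD2 : ∀ m, join X (fun n => !X n) m = true → ∃ t, D m t = true := by
    intro m hm
    by_contra hc
    have : A (3 :: fw (2 * m)) = A (fw (2 * m) ++ [3]) := by
      funext t
      have := not_exists.1 hc t
      simpa [D] using this
    rw [(h m).1 this] at hm
    exact absurd hm (by simp)
  refine ci_search (E := fun n t => cond (D (2 * n) t) (some true)
    (cond (D (2 * n + 1) t) (some false) none)) ?_ ?_ ?_
  · open Primrec in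
    exact ci_cond (ci_comp hD (g := fun q : ℕ × ℕ => (2 * q.1, q.2))
        (Primrec.pair (nat_double.comp fst) snd).computableIn) (ComputableIn.const _)
      (ci_cond (ci_comp hD (g := fun q : ℕ × ℕ => (2 * q.1 + 1, q.2))
        (Primrec.pair (nat_double_succ.comp fst) snd).computableIn) (ComputableIn.const _)
        (ComputableIn.const _))
  · intro n t b hb
    cases h1 : D (2 * n) t
    · cases h2 : D (2 * n + 1) t
      · simp [h1, h2] at hb
      · have := hD1 _ _ h2
        simp only [h1, h2, cond_false, cond_true, Option.some.injEq] at hb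
        simpa [← hb] using this
    · have := hD1 _ _ h1
      simp only [h1, cond_true, Option.some.injEq] at hb
      simpa [← hb] using this
  · intro n
    cases hn : X n
    · obtain ⟨t, ht⟩ := hD2 (2 * n + 1) (by simp [hn])
      refine ⟨t, ?_⟩
      cases h1 : D (2 * n) t <;> simp [ht]
    · obtain ⟨t, ht⟩ := hD2 (2 * n) (by simp [hn])
      exact ⟨t, by simp [ht]⟩

end Vale.Agent.P327
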