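import Vale.Agent.P327.Normal

/-!
Joins, tables, and uniform iteration of functionals.
-/

namespace Vale.Agent.P327

open Encodable

theorem tl_iff {x y : C} : TL x y ↔ Nat.RecursiveIn {orc y} (orc x) := by
  constructor
  · intro h
    exact Nat.RecursiveIn.of_eq h fun n => by simp [orc]
  · intro h
    exact Nat.RecursiveIn.of_eq h fun n => by simp [orc]

theorem TL.refl (x : C) : TL x x := tl_iff.2 (.oracle _ rfl)

theorem ci_trans {α σ : Type} [Primcodable α] [Primcodable σ] {f : α → σ} {y z : C}
    (hf : ComputableIn {orc y} f) (h : TL y z) : ComputableIn {orc z} f :=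
  Nat.RecursiveIn.subst hf fun g hg => by
    obtain rfl : g = orc y := hg
    exact tl_iff.1 h

theorem TL.trans {x y z : C} (h1 : TL x y) (h2 : TL y z) : TL x z := ci_trans h1 h2

/-- The join of two reals. -/
def join (x y : C) : C := fun n => cond n.bodd (y n.div2) (x n.div2)

@[simp] theorem join_even (x y : C) (n : ℕ) : join x y (2 * n) = x n := by
  simp [join, Nat.div2_val]

@[simp] theorem join_odd (x y : C) (n : ℕ) : join x y (2 * n + 1) = y n := by
  simp [join, Nat.div2_val]

theorem tl_join_left (x y : C) : TL x (join x y) :=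
  ci_of_eq (ci_comp (TL.refl (join x y)) Primrec.nat_double.computableIn) fun n => by simp

theorem tl_join_right (x y : C) : TL y (join x y) :=
  ci_of_eq (ci_comp (TL.refl (join x y)) Primrec.nat_double_succ.computableIn) fun n => by simp

theorem join_tl {x y z : C} (hx : TL x z) (hy : TL y z) : TL (join x y) z :=
  ci_cond Primrec.nat_bodd.computableIn (ci_comp hy Primrec.nat_div2.computableIn)
    (ci_comp hx Primrec.nat_div2.computableIn)

/-- The table of `g` below `L`. -/
def tab (L : ℕ) (g : ℕ → Option Bool) : S := (List.range L).map g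

theorem val_tab (L : ℕ) (g : ℕ → Option Bool) (i : ℕ) :
    val (tab L g) i = if i < L then g i else none := by
  unfold val tab
  split_ifs with h
  · simp [List.getD_eq_getElem?_getD, h]
  · simp [List.getD_eq_getElem?_getD, List.getElem?_eq_none (l := List.range L) (by simpa using h)]

theorem tab_prim {α : Type} [Primcodable α] {L : α → ℕ} {g : α → ℕ → Option Bool}
    (hL : Primrec L) (hg : Primrec₂ g) : Primrec fun a => tab (L a) (g a) :=
  Primrec.list_map (Primrec.list_range.comp hL) hg

theorem ap_tab {L : ℕ} {g : ℕ → Option Bool} {x : C}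
    (h : ∀ i < L, ∀ b, g i = some b → x i = b) : Ap (tab L g) x := by
  intro i b hb
  rw [val_tab] at hb
  split_ifs at hb with hi
  exact h i hi b hb

theorem full_tab {L k : ℕ} {g : ℕ → Option Bool} (hk : k ≤ L) (h : ∀ i < k, (g i).isSome) :
    Full (tab L g) k := by
  intro i hi
  rw [val_tab, if_pos (lt_of_lt_of_le hi hk)]
  exact h i hi

/-- Initial segment. -/
def pre (x : C) (k : ℕ) : S := tab k fun i => some (x i)

theorem ap_pre (x : C) (k : ℕ) : Ap (pre x k) x :=
  ap_tab fun _ _ _ h => Option.some.inj h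

theorem full_pre (x : C) {k l : ℕ} (h : l ≤ k) : Full (pre x k) l :=
  full_tab h fun _ _ => rfl

theorem ci_pre {O : Set (ℕ →. ℕ)} {x : C} (hx : ComputableIn O x) : ComputableIn O (pre x) := by
  have := ci_nat_rec (O := O) (f := fun n : ℕ => n) (g := fun _ => ([] : S))
    (h := fun _ p => p.2 ++ [some (x p.1)]) ComputableIn.id (ComputableIn.const _)
    (ci_prim₂ (f := fun (l : S) (a : Option Bool) => l ++ [a]) Primrec.list_concat (Primrec.snd.comp Primrec.snd).computableIn
      (ci_prim Primrec.option_some (ci_comp hx (Primrec.fst.comp Primrec.snd).computableIn)))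
  refine ci_of_eq this fun n => ?_
  induction n with
  | zero => rfl
  | succ n ih => simp [ih, pre, tab, List.range_succ]

/-- Join of approximations. -/
def jn (s t : S) : S :=
  tab (s.length + t.length) fun i => cond i.bodd (val t i.div2) (val s i.div2)

theorem jn_prim : Primrec₂ jn := by
  open Primrec in
  exact Primrec₂.mk (tab_prim (nat_add.comp (list_length.comp fst) (list_length.comp snd))
    (Primrec₂.mk (Primrec.cond (nat_bodd.comp snd)
      (val_prim.comp (snd.comp fst) (nat_div2.comp snd))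
      (val_prim.comp (fst.comp fst) (nat_div2.comp snd)))))

theorem ap_jn {s t : S} {x y : C} (hs : Ap s x) (ht : Ap t y) : Ap (jn s t) (join x y) := by
  refine ap_tab fun i _ b hb => ?_
  unfold join
  cases h : i.bodd
  · rw [h] at hb; exact hs _ _ hb
  · rw [h] at hb; exact ht _ _ hb

theorem full_jn {s t : S} {k : ℕ} (hs : Full s k) (ht : Full t k) : Full (jn s t) k := by
  refine full_tab (le_trans hs.le_length (Nat.le_add_right _ _)) fun i hi => ?_
  have : i.div2 < k := by rw [Nat.div2_val]; omega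
  cases h : i.bodd
  · exact hs _ this
  · exact ht _ this

/-- Application of a functional to an approximation. -/
def app (ψ : S → ℕ → Option Bool) (s : S) : S := tab s.length (ψ s)

theorem ap_app {ψ : S → ℕ → Option Bool} {x y : C} (h : Red ψ y x) {s : S} (hs : Ap s y) :
    Ap (app ψ s) x :=
  ap_tab fun i _ b hb => h.1 s i b hs hb

theorem full_app {ψ : S → ℕ → Option Bool} {x y : C} (h : Red ψ y x) (n : ℕ) :
    ∃ k, ∀ s, Ap s y → Full s k → Full (app ψ s) n := by
  obtain ⟨k, hk⟩ := exists_bound (P := fun i k => ∀ s, Ap s y → Full s k → (ψ s i).isSome)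
    (fun i k l hkl h s hs hf => h s hs (hf.mono hkl)) n (fun i _ => h.2 i)
  refine ⟨max k n, fun s hs hf => full_tab ?_ fun i hi => hk i hi s hs (hf.mono (le_max_left _ _))⟩
  exact le_trans (le_max_right _ _) hf.le_length

theorem Red.unique {ψ : S → ℕ → Option Bool} {x x' y : C} (h : Red ψ y x) (h' : Red ψ y x') :
    x = x' := by
  funext n
  obtain ⟨k, hk⟩ := h.2 n
  obtain ⟨b, hb⟩ := Option.isSome_iff_exists.1 (hk _ (ap_pre y k) (full_pre y le_rfl))
  rw [h.1 _ n b (ap_pre y k) hb, h'.1 _ n b (ap_pre y k) hb]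

theorem Red.tl {ψ : Fn} {x y : C} (h : Red ψ.1 y x) : TL x y := by
  refine ci_search (E := fun n k => ψ.1 (pre y k) n)
    (ci_prim₂ ψ.2 (ci_comp (ci_pre (TL.refl y)) ComputableIn.snd) ComputableIn.fst) ?_ ?_
  · exact fun n k b hb => h.1 _ n b (ap_pre y k) hb
  · intro n
    obtain ⟨k, hk⟩ := h.2 n
    exact ⟨k, hk _ (ap_pre y k) (full_pre y le_rfl)⟩

/-- Iteration of a finite family of two-step functionals along a word. -/
def iter (f g : Fin 4 → Fn) (s t u : S) (w : List (Fin 4)) : S :=
  w.foldr (fun i r => app (g i).1 (jn (app (f i).1 (jn r t)) u)) s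

theorem app_prim (f : Fin 4 → Fn) : Primrec₂ fun (i : Fin 4) (s : S) => app (f i).1 s :=
  Primrec.fin_curry₁.2 fun i => tab_prim Primrec.list_length (f i).2

theorem iter_prim (f g : Fin 4 → Fn) :
    Primrec fun p : (S × S × S) × List (Fin 4) => iter f g p.1.1 p.1.2.1 p.1.2.2 p.2 := by
  open Primrec in
  refine list_foldr snd (fst.comp fst)
    (h := fun (p : (S × S × S) × List (Fin 4)) (q : Fin 4 × S) =>
      app (g q.1).1 (jn (app (f q.1).1 (jn q.2 p.1.2.1)) p.1.2.2)) (Primrec₂.mk ?_)
  exact (app_prim g).comp (fst.comp snd) (jn_prim.comp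
    ((app_prim f).comp (fst.comp snd)
      (jn_prim.comp (snd.comp snd) (fst.comp (snd.comp (fst.comp fst)))))
    (snd.comp (snd.comp (fst.comp fst))))

theorem iteration {f g : Fin 4 → Fn} {A : List (Fin 4) → C} {B : Fin 4 → List (Fin 4) → C}
    {Z Z' O : C} (h1 : ∀ i w, Red (f i).1 (join (A w) Z) (B i w))
    (h2 : ∀ i w, Red (g i).1 (join (B i w) Z') (A (i :: w)))
    (hA : TL (A []) O) (hZ : TL Z O) (hZ' : TL Z' O) :
    ComputableIn {orc O} fun p : List (Fin 4) × ℕ => A p.1 p.2 := by
  have sound : ∀ s t u, Ap s (A []) → Ap t Z → Ap u Z' → ∀ w, Ap (iter f g s t u w) (A w) := by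
    intro s t u hs ht hu w
    induction w with
    | nil => exact hs
    | cons i w ih => exact ap_app (h2 i w) (ap_jn (ap_app (h1 i w) (ap_jn ih ht)) hu)
  have full : ∀ w n, ∃ k, ∀ s t u, Ap s (A []) → Ap t Z → Ap u Z' → Full s k → Full t k →
      Full u k → Full (iter f g s t u w) n := by
    intro w
    induction w with
    | nil => exact fun n => ⟨n, fun s t u _ _ _ h _ _ => h⟩
    | cons i w ih =>
      intro n
      obtain ⟨k1, hk1⟩ := full_app (h2 i w) n
      obtain ⟨k2, hk2⟩ := full_app (h1 i w) k1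
      obtain ⟨k3, hk3⟩ := ih k2
      refine ⟨max k1 (max k2 k3), fun s t u hs ht hu fs ft fu => ?_⟩
      have a1 := ap_jn (sound s t u hs ht hu w) ht
      refine hk1 _ (ap_jn (ap_app (h1 i w) a1) hu) (full_jn (hk2 _ a1 (full_jn ?_ ?_)) ?_)
      · exact hk3 s t u hs ht hu (fs.mono (by omega)) (ft.mono (by omega)) (fu.mono (by omega))
      · exact ft.mono (by omega)
      · exact fu.mono (by omega)
  refine ci_search
    (E := fun p k => val (iter f g (pre (A []) k) (pre Z k) (pre Z' k) p.1) p.2) ?_ ?_ ?_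
  · refine ci_prim₂ val_prim ?_ (Primrec.snd.comp Primrec.fst).computableIn
    exact ci_prim (iter_prim f g) (g := fun q : (List (Fin 4) × ℕ) × ℕ =>
      ((pre (A []) q.2, pre Z q.2, pre Z' q.2), q.1.1))
      (ci_pair (ci_pair (ci_comp (ci_pre hA) ComputableIn.snd)
        (ci_pair (ci_comp (ci_pre hZ) ComputableIn.snd) (ci_comp (ci_pre hZ') ComputableIn.snd)))
        (Primrec.fst.comp Primrec.fst).computableIn)
  · intro p k b hb
    exact sound _ _ _ (ap_pre _ k) (ap_pre _ k) (ap_pre _ k) p.1 _ _ hb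
  · intro p
    obtain ⟨k, hk⟩ := full p.1 (p.2 + 1)
    exact ⟨k, hk _ _ _ (ap_pre _ k) (ap_pre _ k) (ap_pre _ k) (full_pre _ le_rfl)
      (full_pre _ le_rfl) (full_pre _ le_rfl) p.2 (Nat.lt_succ_self _)⟩

end Vale.Agent.P327
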