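import Vale.Agent.P327.Group

/-!
Step B: every automorphism moves degrees up, hence is the identity.
-/

namespace Vale.Agent.P327

open Encodable Filter

theorem tl_not (X : C) : TL (fun n => !X n) X := ci_prim Primrec.not (TL.refl X)

theorem Aut.le {R : C → C → Prop} (h : Aut R) {Y X : C} (hYX : R Y X) : TL Y X := by
  obtain ⟨F, mF, hF⟩ := h.cover
  obtain ⟨K, mK, hK⟩ := h.symm.cover
  obtain ⟨⟨e1, e2⟩, hB⟩ := freq_pigeon
    (q := fun (e : Fn × Fn) x => R x (F e.1 x) ∧ K e.2 (F e.1 x) = x) freq_true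
    (fun x _ => by
      obtain ⟨y, hy⟩ := h.left x
      obtain ⟨a, ha⟩ := hF x y hy
      obtain ⟨b, hb⟩ := hK y x hy
      exact ⟨(a, b), by simp only [ha]; exact ⟨hy, hb⟩⟩)
  simp only [true_and] at hB
  set F1 := F e1 with hF1
  set K1 := K e2 with hK1
  set Xt := P327.join X (fun n => !X n) with hXt
  have tXt : TL Xt X := join_tl (TL.refl X) (tl_not X)
  choose Z hZ using fun l : C => h.left (P327.join X l)
  let E : C → (Fin 4 → Fn × Fn × Fn) → C → Prop := fun l τ x => K1 (F1 x) = x ∧ ∀ i,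
    Red (τ i).2.1.1 (P327.join (F1 x) (Z l)) (F (τ i).1 (T Xt i l x)) ∧
    Red (τ i).2.2.1 (P327.join (F (τ i).1 (T Xt i l x)) (Z l)) (F1 x)
  have mE : ∀ l τ, Measurable (E l τ) := by
    intro l τ
    refine Measurable.and ?_ (Measurable.forall fun i => Measurable.and ?_ ?_)
    · exact Measurable.eq ((mK e2).comp (mF e1)) measurable_id
    · exact meas_red (meas_join (mF e1) measurable_const)
        ((mF _).comp (T_cont Xt i l).measurable) _
    · exact meas_red (meas_join ((mF _).comp (T_cont Xt i l).measurable) measurable_const)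
        (mF e1) _
  have typ : ∀ l, ∃ τ s, (∀ᶠ x in residual C, Cyl s x → E l τ x) ∧
      ∃ᶠ x in residual C, R x (F1 x) ∧ Cyl s x := by
    intro l
    obtain ⟨τ, hτ⟩ := freq_pigeon (q := fun τ x => E l τ x) hB (fun x hx => by
      have : ∀ i : Fin 4, ∃ t : Fn × Fn × Fn,
          Red t.2.1.1 (P327.join (F1 x) (Z l)) (F t.1 (T Xt i l x)) ∧
          Red t.2.2.1 (P327.join (F t.1 (T Xt i l x)) (Z l)) (F1 x) := by
        intro i
        obtain ⟨y, hy⟩ := h.left (T Xt i l x)
        obtain ⟨a, ha⟩ := hF _ y hy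
        have key : ∀ u : C, TL (T Xt i l u) (P327.join u (P327.join X l)) := fun u =>
          T_tl i (tXt.trans ((tl_join_left X l).trans (tl_join_right _ _)))
            ((tl_join_right X l).trans (tl_join_right _ _)) (tl_join_left _ _)
        obtain ⟨b, hb⟩ := (h.join hx.1 (hZ l) hy (key x)).exists_red
        have k2 := key (T Xt i l x)
        rw [T_invol] at k2
        obtain ⟨c, hc⟩ := (h.join hy (hZ l) hx.1 k2).exists_red
        exact ⟨(a, b, c), by simp only [ha]; exact ⟨hb, hc⟩⟩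
      choose τ hτ using this
      exact ⟨τ, hx.2, hτ⟩)
    obtain ⟨s, h1, h2⟩ := localize hτ (mE l τ) fun x hx => hx.2
    exact ⟨τ, s, h1, h2.mono fun x hx => ⟨hx.1.1.1, hx.2⟩⟩
  obtain ⟨⟨τ, s, ρ⟩, hL⟩ := freq_pigeon
    (q := fun (t : (Fin 4 → Fn × Fn × Fn) × List Bool × List Bool) l =>
      (∀ᶠ x in residual C, Cyl t.2.1 x → E l t.1 x) ∧
      (∃ᶠ x in residual C, R x (F1 x) ∧ Cyl t.2.1 x) ∧ lst l t.2.1.length = t.2.2) freq_true
    (fun l _ => by
      obtain ⟨τ, s, h1, h2⟩ := typ l
      exact ⟨(τ, s, lst l s.length), h1, h2, rfl⟩)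
  simp only [true_and] at hL
  refine cone_avoid (hL.mono fun l hl => ?_)
  refine cone_avoid ((hL.and_eventually (ev_ne l)).mono fun l' hl' => ?_)
  obtain ⟨hl1, hl2, hl3⟩ := hl
  obtain ⟨⟨hl1', -, hl3'⟩, hne⟩ := hl'
  let d : C := fun j => xor (l j) (l' j)
  have hd : ∀ j < s.length, d j = false := by
    intro j hj
    have e : l j = l' j := by
      rw [← lst_getD l hj, ← lst_getD l' hj, hl3, hl3']
    simp [d, e]
  obtain ⟨j, hj⟩ : ∃ j, d j = true := by
    by_contra hc
    apply hne
    funext j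
    have := not_exists.1 hc j
    revert this
    simp only [d]
    cases l j <;> cases l' j <;> simp
  have hev : ∀ᶠ e in residual C, ∀ w, (Cyl s (act Xt d w e) → E l τ (act Xt d w e)) ∧
      (Cyl s (act Xt d w e) → E l' τ (act Xt d w e)) :=
    eventually_countable_forall.2 fun w => ev_act Xt d w (hl1.and hl1')
  refine cone_avoid ((hl2.and_eventually hev).mono fun e he => ?_)
  obtain ⟨⟨hRe, hce⟩, he⟩ := he
  have hcw : ∀ w, Cyl s (act Xt d w e) := fun w i hi =>
    (act_agree Xt hd w e i hi).trans (hce i hi)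
  set W := P327.join (P327.join (P327.join X l) l') e with hW
  obtain ⟨O, hO⟩ := h.left W
  have t1 : TL (P327.join X l) W := (tl_join_left _ _).trans (tl_join_left _ _)
  have t2 : TL (P327.join X l') W :=
    join_tl ((tl_join_left X l).trans t1) ((tl_join_right _ _).trans (tl_join_left _ _))
  have hA := iteration (f := fun i => (τ i).2.1) (g := fun i => (τ i).2.2)
    (A := fun w => F1 (act Xt d w e)) (B := fun i w => F (τ i).1 (T Xt i l (act Xt d w e)))
    (Z := Z l) (Z' := Z l') (O := O)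
    (fun i w => (((he w).1 (hcw w)).2 i).1)
    (fun i w => by
      have h1 := (((he (i :: w)).2 (hcw (i :: w))).2 i).2
      have h2 : T Xt i l' (act Xt d (i :: w) e) = T Xt i l (act Xt d w e) := by
        rw [act_cons, T_T]
        congr 1
        funext j
        simp only [d]
        cases l j <;> cases l' j <;> rfl
      rw [h2] at h1
      exact h1)
    ((h.le_iff hRe hO).1 (tl_join_right _ _))
    ((h.le_iff (hZ l) hO).1 t1) ((h.le_iff (hZ l') hO).1 t2)
  refine (h.le_iff hYX hO).2 (decode_tl (A := fun w => F1 (act Xt d w e)) hA fun m => ?_)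
  rw [← act_test Xt hj m e]
  constructor
  · intro hc
    rw [← ((he _).1 (hcw _)).1, hc, ((he _).1 (hcw _)).1]
  · intro hc
    rw [hc]

theorem Aut.equiv {R : C → C → Prop} (h : Aut R) {x y : C} (hxy : R x y) : TL x y ∧ TL y x :=
  ⟨h.le hxy, h.symm.le hxy⟩

end Vale.Agent.P327
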