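import Vale.Agent.P327.Rec

/-!
Finite approximations and the normal form of oracle computations.
-/

namespace Vale.Agent.P327

open Encodable

/-- Cantor space. -/
abbrev C := ℕ → Bool

/-- Finite approximations. -/
abbrev S := List (Option Bool)

def orc (y : C) : ℕ →. ℕ := fun n => Part.some (encode (y n))

/-- Turing reducibility on Cantor space. -/
def TL (x y : C) : Prop := ComputableIn {orc y} x

def val (s : S) (i : ℕ) : Option Bool := s.getD i none

def Ap (s : S) (x : C) : Prop := ∀ i b, val s i = some b → x i = b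

def Full (s : S) (k : ℕ) : Prop := ∀ i < k, (val s i).isSome

theorem val_prim : Primrec₂ val := Primrec.list_getD none

theorem lt_of_val {s : S} {i : ℕ} (h : (val s i).isSome) : i < s.length := by
  by_contra hi
  simp [val, List.getD_eq_getElem?_getD, List.getElem?_eq_none (not_lt.1 hi)] at h

theorem Full.le_length {s : S} {k : ℕ} (h : Full s k) : k ≤ s.length := by
  rcases k with _ | k
  · exact Nat.zero_le _
  · exact lt_of_val (h k (Nat.lt_succ_self k))

theorem Full.mono {s : S} {k l : ℕ} (h : Full s k) (hl : l ≤ k) : Full s l :=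
  fun i hi => h i (lt_of_lt_of_le hi hl)

/-- The approximation `φ` computes the function `g` from the oracle `y`. -/
def Nf (φ : S → ℕ → Option ℕ) (y : C) (g : ℕ →. ℕ) : Prop :=
  (∀ s n v, Ap s y → φ s n = some v → v ∈ g n) ∧
  (∀ n v, v ∈ g n → ∃ k, ∀ s, Ap s y → Full s k → φ s n = some v)

def srch (φ : S → ℕ → Option ℕ) (s : S) (a : ℕ) (m : ℕ) : Option ℕ :=
  Nat.rec (motive := fun _ => Option ℕ) (some 0)
    (fun m IH => IH.bind fun u =>
      if u = 0 then (φ s (Nat.pair a m)).map (fun v => if v = 0 then m + 1 else 0) else some u) m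

theorem srch_zero (φ : S → ℕ → Option ℕ) (s : S) (a : ℕ) : srch φ s a 0 = some 0 := rfl

theorem srch_succ (φ : S → ℕ → Option ℕ) (s : S) (a m : ℕ) :
    srch φ s a (m + 1) = (srch φ s a m).bind fun u =>
      if u = 0 then (φ s (Nat.pair a m)).map (fun v => if v = 0 then m + 1 else 0)
      else some u := rfl

theorem srch_sound (φ : S → ℕ → Option ℕ) (s : S) (a : ℕ) : ∀ m,
    (srch φ s a m = some 0 → ∀ i < m, ∃ v, v ≠ 0 ∧ φ s (Nat.pair a i) = some v) ∧
    (∀ u, srch φ s a m = some (u + 1) → φ s (Nat.pair a u) = some 0 ∧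
      ∀ i < u, ∃ v, v ≠ 0 ∧ φ s (Nat.pair a i) = some v) := by
  intro m
  induction m with
  | zero => simp [srch_zero]
  | succ m ih =>
    obtain ⟨ih1, ih2⟩ := ih
    rw [srch_succ]
    rcases h : srch φ s a m with _ | _ | w
    · simp
    · simp only [Option.bind_some, if_true]
      rcases h2 : φ s (Nat.pair a m) with _ | v
      · simp
      · by_cases hv : v = 0
        · subst hv
          refine ⟨by simp, fun u hu => ?_⟩
          have : m = u := by simpa using hu
          subst this
          exact ⟨h2, ih1 h⟩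
        · refine ⟨fun _ i hi => ?_, by simp [hv]⟩
          rcases Nat.lt_succ_iff_lt_or_eq.1 hi with hi | rfl
          · exact ih1 h i hi
          · exact ⟨v, hv, h2⟩
    · refine ⟨by simp, fun u hu => ?_⟩
      have : w = u := by simpa using hu
      subst this
      exact ih2 w h

theorem srch_complete (φ : S → ℕ → Option ℕ) (s : S) (a u : ℕ)
    (h0 : φ s (Nat.pair a u) = some 0)
    (h1 : ∀ i < u, ∃ v, v ≠ 0 ∧ φ s (Nat.pair a i) = some v) :
    ∀ m, u < m → srch φ s a m = some (u + 1) := by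
  have h2 : ∀ m ≤ u, srch φ s a m = some 0 := by
    intro m
    induction m with
    | zero => intro _; rfl
    | succ m ih =>
      intro hm
      obtain ⟨v, hv, hv2⟩ := h1 m hm
      rw [srch_succ, ih (Nat.le_of_succ_le hm)]
      simp [hv2, hv]
  intro m hm
  induction m with
  | zero => omega
  | succ m ih =>
    rw [srch_succ]
    rcases Nat.lt_succ_iff_lt_or_eq.1 hm with hm | rfl
    · rw [ih hm]; simp
    · rw [h2 u le_rfl]; simp [h0]

open Primrec in
theorem srch_prim {φ : S → ℕ → Option ℕ} (hφ : Primrec₂ φ) :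
    Primrec fun p : S × ℕ => srch φ p.1 p.2 p.1.length := by
  unfold srch
  refine nat_rec' (list_length.comp fst) (const (some 0))
    (h := fun (p : S × ℕ) (q : ℕ × Option ℕ) => q.2.bind fun u =>
      if u = 0 then (φ p.1 (Nat.pair p.2 q.1)).map (fun v => if v = 0 then q.1 + 1 else 0)
      else some u) ?_
  refine Primrec₂.mk (option_bind (snd.comp snd) (Primrec₂.mk ?_))
  refine Primrec.ite (PrimrecRel.comp Primrec.eq snd (const 0)) ?_ (option_some.comp snd)
  refine option_map (hφ.comp (fst.comp (fst.comp fst))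
    (Primrec₂.natPair.comp (snd.comp (fst.comp fst)) (fst.comp (snd.comp fst)))) (Primrec₂.mk ?_)
  exact Primrec.ite (PrimrecRel.comp Primrec.eq snd (const 0))
    (succ.comp (fst.comp (snd.comp (fst.comp fst)))) (const 0)

theorem exists_bound {P : ℕ → ℕ → Prop} (hP : ∀ i k l, k ≤ l → P i k → P i l) (u : ℕ)
    (h : ∀ i < u, ∃ k, P i k) : ∃ k, ∀ i < u, P i k := by
  induction u with
  | zero => exact ⟨0, fun i hi => absurd hi (Nat.not_lt_zero i)⟩
  | succ u ih =>
    obtain ⟨k, hk⟩ := ih fun i hi => h i (Nat.lt_succ_of_lt hi)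
    obtain ⟨l, hl⟩ := h u (Nat.lt_succ_self u)
    refine ⟨max k l, fun i hi => ?_⟩
    rcases Nat.lt_succ_iff_lt_or_eq.1 hi with hi | rfl
    · exact hP _ _ _ (le_max_left _ _) (hk i hi)
    · exact hP _ _ _ (le_max_right _ _) hl

theorem nf_total {y : C} {g : ℕ → ℕ} (hg : Primrec g) :
    ∃ φ, Primrec₂ φ ∧ Nf φ y (fun n => Part.some (g n)) :=
  ⟨fun _ n => some (g n), (Primrec.option_some.comp (hg.comp Primrec.snd)).to₂,
    fun s n v _ h => by simpa using (Option.some.inj h).symm,
    fun n v h => ⟨0, fun s _ _ => by simpa using (Part.mem_some_iff.1 h).symm⟩⟩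

open Primrec in
theorem normal_form {y : C} {g : ℕ →. ℕ} (hg : Nat.RecursiveIn {orc y} g) :
    ∃ φ, Primrec₂ φ ∧ Nf φ y g := by
  induction hg with
  | zero => exact nf_total (const 0)
  | succ => exact nf_total succ
  | left => exact nf_total (fst.comp unpair)
  | right => exact nf_total (snd.comp unpair)
  | oracle g hg =>
    obtain rfl : g = orc y := hg
    refine ⟨fun s n => (val s n).map encode,
      to₂ (option_map val_prim (Primrec.encode.comp snd).to₂), ?_, ?_⟩
    · intro s n v hs h
      obtain ⟨b, hb, rfl⟩ := Option.map_eq_some_iff.1 h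
      simp [orc, hs n b hb]
    · intro n v hv
      refine ⟨n + 1, fun s hs hf => ?_⟩
      obtain ⟨b, hb⟩ := Option.isSome_iff_exists.1 (hf n (Nat.lt_succ_self n))
      have : v = encode (y n) := by simpa [orc] using hv
      simp [hb, this, hs n b hb]
  | @pair f h _ _ ihf ihh =>
    obtain ⟨φ, pφ, sφ, cφ⟩ := ihf
    obtain ⟨ψ, pψ, sψ, cψ⟩ := ihh
    refine ⟨fun s n => (φ s n).bind fun a => (ψ s n).map (Nat.pair a),
      to₂ (option_bind pφ (to₂ (option_map (pψ.comp (fst.comp fst) (snd.comp fst))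
        (Primrec₂.natPair.comp (snd.comp fst) snd).to₂))), ?_, ?_⟩
    · intro s n v hs hv
      obtain ⟨a, ha, hv⟩ := Option.bind_eq_some_iff.1 hv
      obtain ⟨b, hb, rfl⟩ := Option.map_eq_some_iff.1 hv
      simp only [Seq.seq, Part.map_eq_map, Part.mem_bind_iff, Part.mem_map_iff]
      exact ⟨_, ⟨a, sφ s n a hs ha, rfl⟩, b, sψ s n b hs hb, rfl⟩
    · intro n v hv
      simp only [Seq.seq, Part.map_eq_map, Part.mem_bind_iff,
        Part.mem_map_iff] at hv
      obtain ⟨_, ⟨a, ha, rfl⟩, b, hb, rfl⟩ := hv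
      obtain ⟨k, hk⟩ := cφ n a ha
      obtain ⟨l, hl⟩ := cψ n b hb
      refine ⟨max k l, fun s hs hf => ?_⟩
      simp [hk s hs (hf.mono (le_max_left _ _)), hl s hs (hf.mono (le_max_right _ _))]
  | @comp f h _ _ ihf ihh =>
    obtain ⟨φ, pφ, sφ, cφ⟩ := ihf
    obtain ⟨ψ, pψ, sψ, cψ⟩ := ihh
    refine ⟨fun s n => (ψ s n).bind (φ s),
      to₂ (option_bind pψ (pφ.comp (fst.comp fst) snd).to₂), ?_, ?_⟩
    · intro s n v hs hv
      obtain ⟨a, ha, hv⟩ := Option.bind_eq_some_iff.1 hv
      exact Part.mem_bind_iff.2 ⟨a, sψ s n a hs ha, sφ s a v hs hv⟩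
    · intro n v hv
      obtain ⟨a, ha, hv⟩ := Part.mem_bind_iff.1 hv
      obtain ⟨k, hk⟩ := cφ a v hv
      obtain ⟨l, hl⟩ := cψ n a ha
      refine ⟨max k l, fun s hs hf => ?_⟩
      simp [hk s hs (hf.mono (le_max_left _ _)), hl s hs (hf.mono (le_max_right _ _))]
  | @prec f h _ _ ihf ihh =>
    obtain ⟨φ, pφ, sφ, cφ⟩ := ihf
    obtain ⟨ψ, pψ, sψ, cψ⟩ := ihh
    refine ⟨fun s p => Nat.rec (motive := fun _ => Option ℕ) (φ s p.unpair.1)
      (fun m IH => IH.bind fun i => ψ s (Nat.pair p.unpair.1 (Nat.pair m i))) p.unpair.2,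
      ?_, ?_, ?_⟩
    · refine to₂ (nat_rec' (snd.comp (unpair.comp snd)) (pφ.comp fst (fst.comp (unpair.comp snd)))
        (h := fun (p : S × ℕ) (q : ℕ × Option ℕ) => q.2.bind fun i =>
          ψ p.1 (Nat.pair p.2.unpair.1 (Nat.pair q.1 i))) ?_)
      refine Primrec₂.mk (option_bind (snd.comp snd) (Primrec₂.mk ?_))
      exact pψ.comp (fst.comp (fst.comp fst))
        (Primrec₂.natPair.comp (fst.comp (unpair.comp (snd.comp (fst.comp fst))))
          (Primrec₂.natPair.comp (fst.comp (snd.comp fst)) snd))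
    · intro s p v hs
      simp only
      generalize p.unpair.1 = a
      generalize p.unpair.2 = n
      induction n generalizing v with
      | zero => exact sφ s a v hs
      | succ n ih =>
        intro hv
        obtain ⟨i, hi, hv⟩ := Option.bind_eq_some_iff.1 hv
        exact Part.mem_bind_iff.2 ⟨i, ih i hi, sψ s _ v hs hv⟩
    · intro p v
      simp only
      generalize p.unpair.1 = a
      generalize p.unpair.2 = n
      induction n generalizing v with
      | zero => exact cφ a v
      | succ n ih =>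
        intro hv
        obtain ⟨i, hi, hv⟩ := Part.mem_bind_iff.1 hv
        obtain ⟨k, hk⟩ := ih i hi
        obtain ⟨l, hl⟩ := cψ _ v hv
        refine ⟨max k l, fun s hs hf => ?_⟩
        simp only
        rw [hk s hs (hf.mono (le_max_left _ _))]
        exact hl s hs (hf.mono (le_max_right _ _))
  | @rfind f _ ihf =>
    obtain ⟨φ, pφ, sφ, cφ⟩ := ihf
    refine ⟨fun s a => (srch φ s a s.length).bind fun u => Nat.casesOn u none some,
      to₂ (option_bind (srch_prim pφ) (to₂
        (nat_casesOn snd (const none) (option_some.comp snd).to₂))), ?_, ?_⟩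
    · intro s a u hs hv
      obtain ⟨w, hw, hv⟩ := Option.bind_eq_some_iff.1 hv
      rcases w with _ | w
      · simp at hv
      obtain rfl : w = u := by simpa using hv
      obtain ⟨h0, h1⟩ := (srch_sound φ s a s.length).2 w hw
      refine Nat.mem_rfind.2 ⟨?_, fun {m} hm => ?_⟩
      · exact (Part.mem_map_iff _).2 ⟨0, sφ s _ 0 hs h0, by simp⟩
      · obtain ⟨v, hv, hv2⟩ := h1 m hm
        exact (Part.mem_map_iff _).2 ⟨v, sφ s _ v hs hv2, by simp [hv]⟩
    · intro a u hu
      obtain ⟨h0, h1⟩ := Nat.mem_rfind.1 hu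
      obtain ⟨v, hv, hv0⟩ := (Part.mem_map_iff _).1 h0
      obtain rfl : v = 0 := by simpa using hv0
      obtain ⟨k, hk⟩ := cφ _ 0 hv
      obtain ⟨l, hl⟩ := exists_bound (P := fun i k => ∃ v, v ≠ 0 ∧
          ∀ s, Ap s y → Full s k → φ s (Nat.pair a i) = some v)
        (fun i k l hkl ⟨v, hv, h⟩ => ⟨v, hv, fun s hs hf => h s hs (hf.mono hkl)⟩) u
        (fun i hi => by
          obtain ⟨v, hv, hv0⟩ := (Part.mem_map_iff _).1 (h1 hi)
          obtain ⟨k, hk⟩ := cφ _ v hv
          exact ⟨k, v, by simpa using hv0, hk⟩)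
      refine ⟨max (max k l) (u + 1), fun s hs hf => ?_⟩
      have e1 : Full s k := hf.mono (by omega)
      have e2 : Full s l := hf.mono (by omega)
      have e3 : u < s.length := by have := hf.le_length; omega
      have := srch_complete φ s a u (hk s hs e1)
        (fun i hi => by obtain ⟨v, hv, h⟩ := hl i hi; exact ⟨v, hv, h s hs e2⟩) _ e3
      simp [this]

/-- The approximation `ψ` computes `x` from the oracle `y`. -/
def Red (ψ : S → ℕ → Option Bool) (y x : C) : Prop :=
  (∀ s n b, Ap s y → ψ s n = some b → x n = b) ∧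
  (∀ n, ∃ k, ∀ s, Ap s y → Full s k → (ψ s n).isSome)

/-- Primitive recursive approximations. -/
abbrev Fn : Type := {ψ : S → ℕ → Option Bool // Primrec₂ ψ}

instance : Countable Fn := by
  refine Function.Injective.countable (β := {f : ℕ →. ℕ // Partrec f})
    (f := fun ψ => ⟨_, Partrec.nat_iff.2 (Primrec.to_comp ψ.2)⟩) ?_
  intro ψ ψ' h
  apply Subtype.ext
  funext s n
  have := congrFun (congrArg Subtype.val h) (encode (s, n))
  simpa [-encode_prod_val, encodek] using this

theorem TL.exists_red {x y : C} (h : TL x y) : ∃ ψ : Fn, Red ψ.1 y x := by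
  have h' : Nat.RecursiveIn {orc y} (orc x) := by
    refine Nat.RecursiveIn.of_eq h fun n => ?_
    simp [orc]
  obtain ⟨φ, pφ, sφ, cφ⟩ := normal_form h'
  refine ⟨⟨fun s n => (φ s n).bind fun v => decode v,
    Primrec.to₂ (Primrec.option_bind pφ (Primrec.decode.comp Primrec.snd).to₂)⟩, ?_, ?_⟩
  · intro s n b hs hb
    obtain ⟨v, hv, hb⟩ := Option.bind_eq_some_iff.1 hb
    have h1 : v = encode (x n) := by simpa [orc] using sφ s n v hs hv
    rw [h1, encodek] at hb
    exact Option.some.inj hb
  · intro n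
    obtain ⟨k, hk⟩ := cφ n (encode (x n)) (by simp [orc])
    refine ⟨k, fun s hs hf => ?_⟩
    simp only [hk s hs hf, Option.bind_some, encodek, Option.isSome_some]

end Vale.Agent.P327
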