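import Mathlib.Computability.TuringDegree
import Mathlib.Computability.PartrecCode

/-!
Closure properties of relative computability (the same proofs as for `Partrec`).
-/

namespace Vale.Agent.P327

open Encodable Part

variable {O : Set (ℕ →. ℕ)}

theorem natrec_some : Nat.RecursiveIn O Part.some :=
  Nat.Partrec.recursiveIn Nat.Partrec.some

theorem natrec_prec' {f g h : ℕ →. ℕ} (hf : Nat.RecursiveIn O f) (hg : Nat.RecursiveIn O g)
    (hh : Nat.RecursiveIn O h) :
    Nat.RecursiveIn O fun a => (f a).bind fun n => n.rec (g a)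
      fun y IH => do {let i ← IH; h (Nat.pair a (Nat.pair y i))} :=
  ((Nat.RecursiveIn.prec hg hh).comp (Nat.RecursiveIn.pair natrec_some hf)).of_eq fun a =>
    Part.ext fun s => by simp [Seq.seq]

variable {α β γ σ : Type} [Primcodable α] [Primcodable β] [Primcodable γ] [Primcodable σ]

theorem ri_comp {f : β →. σ} {g : α → β} (hf : RecursiveIn O f) (hg : ComputableIn O g) :
    RecursiveIn O fun a => f (g a) :=
  (Nat.RecursiveIn.comp hf hg).of_eq fun n => by
    simp only [map_some, bind_eq_bind]
    rcases e : decode (α := α) n with - | a <;> simp [encodek]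

theorem ci_comp {f : β → σ} {g : α → β} (hf : ComputableIn O f) (hg : ComputableIn O g) :
    ComputableIn O fun a => f (g a) :=
  ri_comp (f := fun b => Part.some (f b)) hf hg

theorem ci_pair {f : α → β} {g : α → γ} (hf : ComputableIn O f) (hg : ComputableIn O g) :
    ComputableIn O fun a => (f a, g a) :=
  (Nat.RecursiveIn.pair hf hg).of_eq fun n => by
    cases decode (α := α) n <;> simp [Seq.seq]

theorem ci_of_eq {f g : α → σ} (hf : ComputableIn O f) (H : ∀ n, f n = g n) :
    ComputableIn O g :=
  (funext H : f = g) ▸ hf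

theorem ci_prim {f : β → σ} {g : α → β} (hf : Primrec f) (hg : ComputableIn O g) :
    ComputableIn O fun a => f (g a) :=
  ci_comp hf.computableIn hg

theorem ci_prim₂ {f : β → γ → σ} {g : α → β} {h : α → γ} (hf : Primrec₂ f)
    (hg : ComputableIn O g) (hh : ComputableIn O h) :
    ComputableIn O fun a => f (g a) (h a) :=
  ci_prim (f := fun p : β × γ => f p.1 p.2) hf (ci_pair hg hh)

theorem ci_cond {c : α → Bool} {f g : α → σ} (hc : ComputableIn O c) (hf : ComputableIn O f)
    (hg : ComputableIn O g) : ComputableIn O fun a => cond (c a) (f a) (g a) :=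
  ci_prim (f := fun p : Bool × σ × σ => cond p.1 p.2.1 p.2.2)
    (Primrec.cond Primrec.fst (Primrec.fst.comp Primrec.snd) (Primrec.snd.comp Primrec.snd))
    (ci_pair hc (ci_pair hf hg))

set_option backward.isDefEq.respectTransparency false in
theorem ri_bind {f : α →. β} {g : α → β →. σ} (hf : RecursiveIn O f)
    (hg : RecursiveIn O fun p : α × β => g p.1 p.2) :
    RecursiveIn O fun a => (f a).bind (g a) :=
  (Nat.RecursiveIn.comp hg (Nat.RecursiveIn.pair natrec_some hf)).of_eq fun n => by
    rcases e : decode (α := α) n <;> simp [Seq.seq, e, encodek]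

theorem ri_nat_rec {f : α → ℕ} {g : α →. σ} {h : α → ℕ × σ →. σ} (hf : ComputableIn O f)
    (hg : RecursiveIn O g) (hh : RecursiveIn O fun p : α × (ℕ × σ) => h p.1 p.2) :
    RecursiveIn O fun a => (f a).rec (g a) fun y IH => IH.bind fun i => h a (y, i) :=
  (natrec_prec' hf hg hh).of_eq fun n => by
    rcases e : decode (α := α) n with - | a
    · simp
    · simp only [coe_some, bind_some]
      induction f a <;> simp_all

theorem ci_nat_rec {f : α → ℕ} {g : α → σ} {h : α → ℕ × σ → σ} (hf : ComputableIn O f)
    (hg : ComputableIn O g) (hh : ComputableIn O fun p : α × (ℕ × σ) => h p.1 p.2) :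
    ComputableIn O fun a => Nat.rec (motive := fun _ => σ) (g a) (fun y IH => h a (y, IH)) (f a) :=
  (ri_nat_rec (g := fun a => Part.some (g a)) (h := fun a p => Part.some (h a p)) hf hg hh).of_eq
    fun a => by
      beta_reduce
      induction f a <;> simp [*]

set_option backward.isDefEq.respectTransparency false in
theorem ri_rfind {p : α → ℕ → Bool} (hp : ComputableIn O fun q : α × ℕ => p q.1 q.2) :
    RecursiveIn O fun a => Nat.rfind (fun n => Part.some (p a n)) :=
  (Nat.RecursiveIn.rfind (ci_prim (Primrec.dom_bool fun b => cond b 0 1) hp)).of_eq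
    fun n => by
    rcases e : decode (α := α) n with - | a
    · simp [e, Nat.rfind_zero_none]
    · simp only [decode_prod_val, Nat.unpair_pair, e, decode_nat, Option.bind_some,
        Option.map_some, coe_some, bind_some, map_some, map_eq_map, encode_nat]
      rw [show (encode : ℕ → ℕ) = id from rfl, Part.map_id' (f := id) (fun _ => rfl)]
      congr 1
      funext m
      cases p a m <;> simp

/-- Search for a certificate. -/
theorem ci_search {f : α → σ} {E : α → ℕ → Option σ}
    (hE : ComputableIn O fun q : α × ℕ => E q.1 q.2)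
    (hs : ∀ a t b, E a t = Option.some b → f a = b) (hc : ∀ a, ∃ t, (E a t).isSome) :
    ComputableIn O f := by
  classical
  rcases isEmpty_or_nonempty α with hα | ⟨⟨a0⟩⟩
  · exact ci_of_eq (f := f) (Primrec.dom_finite f).computableIn fun _ => rfl
  have h1 : RecursiveIn O fun a => Nat.rfind (fun n => Part.some ((E a n).isSome)) :=
    ri_rfind (p := fun a n => (E a n).isSome) (ci_prim Primrec.option_isSome hE)
  have h2 : ComputableIn O fun q : α × ℕ => (E q.1 q.2).getD (f a0) :=
    ci_prim₂ Primrec.option_getD hE (ComputableIn.const _)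
  have h3 := ri_bind (g := fun a n => Part.some ((E a n).getD (f a0))) h1 h2
  refine h3.of_eq fun a => ?_
  obtain ⟨t, ht⟩ := hc a
  obtain ⟨n, hn, -⟩ := Nat.rfind_min' (p := fun n => (E a n).isSome) ht
  have hn' := Nat.rfind_spec hn
  have h4 : (E a n).isSome := by simpa using hn'
  obtain ⟨b, hb⟩ := Option.isSome_iff_exists.1 h4
  apply Part.eq_some_iff.2
  refine Part.mem_bind_iff.2 ⟨n, hn, ?_⟩
  simp [hb, hs a n b hb]

end Vale.Agent.P327
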